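import Vale.Agent.Lib.P038.SatK.Shapes.S6_5_6t
noncomputable section
namespace Vale.Agent.Lib.P038.SatK.I.M2_6
open Vale.Agent.Lib.P038.Sat Vale.Agent.Lib.P038.SatK
def W : Nat := 80
def M : Nat := 1208925819614629174706175
def GT : Nat := 1537576481088952920848645156842568843404601996025369725674680220284757792934958886721356362569133633639050142289996268144078565095792355134976947987512147900979676849797550438982318526795389697763998289820676937614282879403417548502990525220376951520145755920695632863490967077768158547821375234270141580597331124640322816807448522326768902537701830649278981840266419945671464726437720407003532641112454157477308623761858711624451429367627085565891961302366141105246318300664411094982697408029461155944506570785399376045844417990506627621120293203091938005844915043730127330817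
def h0 : T := (T.l (nat_lit 0))
def H : T := h0
theorem hlast : getB H 0 = 0 := by decide +kernel
end Vale.Agent.Lib.P038.SatK.I.M2_6
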